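import Vale.Agent.P295.Main4

open Vale.Agent.P295 in
theorem Vale.Agent.Results.P295.Counterexample.result :
    (¬ ∀ n : ℕ, 1 ≤ n → ∀ f : MvPolynomial (Fin n) ℂ, IsStableCoordinate f → IsCoordinate f) ∧
      IsStableCoordinateOf 1 quintic ∧ ¬ IsCoordinate quintic :=
  ⟨fun h => Four.not_isCoordinate (h 4 (by norm_num) quintic ⟨1, le_rfl, Four.isStable⟩),
    Four.isStable, Four.not_isCoordinate⟩
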